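import Vale.Agent.Lib.P143.Final

/-!
# P143: the free uniform spanning forest is a factor of IID

* for every group with a finite generating set, the free uniform spanning forest of the Cayley
  graph is a factor of IID for the action of the group by left multiplication;
* for every unimodular random graph, the free uniform spanning forest is a graph factor of IID.
-/

open MeasureTheory Vale.Agent.Fusf

theorem Vale.Agent.Results.P143.FusfFactor.result :
    (∀ (Γ : Type*) [Group Γ] (S : Finset Γ), Subgroup.closure (S : Set Γ) = ⊤ →
      ∃ μ : Measure (Set (Sym2 Γ)),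
        IsFUSF (SimpleGraph.mulCayley (S : Set Γ)) μ ∧ IsGroupFactorOfIID μ) ∧
    (∀ P : Measure (SimpleGraph ℕ × ℕ), IsUnimodular P → FUSFIsGraphFactorOfIID P) :=
  ⟨fun _ _ S hS => fusf_isGroupFactorOfIID S hS, fusf_isGraphFactorOfIID⟩
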